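import Mathlib
import Vale.Agent.P064.Main

/-!
# P064: the second Kahn-Kalai conjecture up to one logarithm

For every `n ≥ 2` and every graph `H` with at least one edge and at most `n` vertices,
`p_c(n,H) ≤ C p_E(n,H) (log (2 e(H))) ^ 2`, in particular `p_c(n,H) ≤ C p_E(n,H) (log n) ^ 2`.
-/

namespace Vale.Agent.Results.P064.LogSq

open _root_.P064

theorem result : ∃ C : ℝ, 0 < C ∧ ∀ (n : ℕ), 2 ≤ n → ∀ (W : Type) [Fintype W]
    (H : SimpleGraph W), Fintype.card W ≤ n → 1 ≤ H.edgeSet.ncard →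
      pc n H ≤ C * pE n H * Real.log (2 * H.edgeSet.ncard) ^ 2 ∧
      pc n H ≤ C * pE n H * Real.log n ^ 2 := by
  refine ⟨20000, by norm_num, ?_⟩
  intro n hn W _ H hW he
  refine ⟨(main H hW he).trans ?_, main_log_n hn H hW he⟩
  have h7 := pE_nonneg (n := n) H
  have h8 : 0 ≤ pE n H * Real.log (2 * H.edgeSet.ncard) ^ 2 := by positivity
  nlinarith

end Vale.Agent.Results.P064.LogSq
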