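import Mathlib
import Vale.Agent.P064.FromClaim
import Vale.Agent.P034F.Ind

/-!
# P064: the second Kahn-Kalai conjecture

There is a universal constant `C` such that for every `n ≥ 2` and every graph `H` with at least one
edge and at most `n` vertices, `p_c(n,H) ≤ C p_E(n,H) log n`; more precisely
`p_c(n,H) ≤ C p_E(n,H) log (2 e(H))`.
-/

namespace Vale.Agent.Results.P064.SecondKahnKalai

open _root_.P064

theorem result : ∃ C : ℝ, 0 < C ∧ ∀ (n : ℕ), 2 ≤ n → ∀ (W : Type) [Fintype W]
    (H : SimpleGraph W), Fintype.card W ≤ n → 1 ≤ H.edgeSet.ncard →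
      pc n H ≤ C * pE n H * Real.log (2 * H.edgeSet.ncard) ∧
      pc n H ≤ C * pE n H * Real.log n :=
  second_of_claim fun n q hq =>
    TAL.claim_all (edGroup n) q (Real.exp 20000) hq (le_refl _)

end Vale.Agent.Results.P064.SecondKahnKalai
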